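import Mathlib

/-! # P240: the augmented rational chain complex of the order complex of `A_p(G)` -/

open scoped Pointwise

namespace Vale.Agent.Lib.P240

/-- `E` is a nonidentity elementary abelian `p`-subgroup of `G` -/
def IsElemAb {G : Type} [Group G] (p : ℕ) (E : Subgroup G) : Prop :=
  E ≠ ⊥ ∧ (∀ x ∈ E, ∀ y ∈ E, x * y = y * x) ∧ ∀ x ∈ E, x ^ p = 1

/-- the subgroup `Q` normalises the subgroup `E` -/
def Normalises {G : Type} [Group G] (Q E : Subgroup G) : Prop :=
  ∀ g ∈ Q, ∀ x ∈ E, g * x * g⁻¹ ∈ E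

/-- the strictly increasing chains `E_0 < ... < E_(n-1)` of nonidentity elementary abelian
`p`-subgroups of `G`: the simplices of dimension `n - 1` of the order complex -/
def Simp (p : ℕ) (G : Type) [Group G] (n : ℕ) : Type :=
  {σ : Fin n → Subgroup G // StrictMono σ ∧ ∀ i, IsElemAb p (σ i)}

/-- the `i`-th face: omit `E_i` -/
def face {p : ℕ} {G : Type} [Group G] {n : ℕ} (σ : Simp p G (n + 1)) (i : Fin (n + 1)) :
    Simp p G n :=
  ⟨σ.1 ∘ i.succAbove, σ.2.1.comp (Fin.strictMono_succAbove i), fun _ => σ.2.2 _⟩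

/-- the boundary map of the augmented rational simplicial chain complex of the order complex, from
chains on simplices with `n + 1` vertices to chains on simplices with `n` vertices -/
noncomputable def bd (p : ℕ) (G : Type) [Group G] (n : ℕ) :
    (Simp p G (n + 1) →₀ ℚ) →ₗ[ℚ] (Simp p G n →₀ ℚ) :=
  Finsupp.linearCombination ℚ
    (fun σ => ∑ i : Fin (n + 1), Finsupp.single (face σ i) ((-1 : ℚ) ^ (i : ℕ)))

/-- all reduced rational homology groups of the order complex vanish (degree `-1` and, for each `n`,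
degree `n`) -/
def Acyclic (p : ℕ) (G : Type) [Group G] : Prop :=
  LinearMap.range (bd p G 0) = ⊤ ∧
    ∀ n, LinearMap.ker (bd p G n) = LinearMap.range (bd p G (n + 1))

variable {G : Type} [Group G]

instance [Finite G] (p n : ℕ) : Finite (Simp p G n) := by
  unfold Simp
  infer_instance

theorem isElemAb_smul (p : ℕ) (φ : MulAut G) {E : Subgroup G} (hE : IsElemAb p E) :
    IsElemAb p (φ • E) := by
  obtain ⟨h1, h2, h3⟩ := hE
  refine ⟨?_, ?_, ?_⟩
  · intro hb
    apply h1
    rw [Subgroup.eq_bot_iff_forall] at hb ⊢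
    intro x hx
    have h4 : φ • x = 1 := hb _ (Subgroup.smul_mem_pointwise_smul x φ E hx)
    have h5 : φ x = 1 := h4
    exact (map_eq_one_iff φ φ.injective).1 h5
  · intro x hx y hy
    obtain ⟨a, ha, rfl⟩ := (Subgroup.mem_smul_pointwise_iff_exists x φ E).1 hx
    obtain ⟨b, hb, rfl⟩ := (Subgroup.mem_smul_pointwise_iff_exists y φ E).1 hy
    show φ a * φ b = φ b * φ a
    rw [← map_mul, ← map_mul, h2 a ha b hb]
  · intro x hx
    obtain ⟨a, ha, rfl⟩ := (Subgroup.mem_smul_pointwise_iff_exists x φ E).1 hx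
    show (φ a) ^ p = 1
    rw [← map_pow, h3 a ha, map_one]

theorem strictMono_smul (φ : MulAut G) {n : ℕ} {σ : Fin n → Subgroup G} (h : StrictMono σ) :
    StrictMono (fun i => φ • σ i) := by
  intro i j hij
  have h1 := h hij
  rw [lt_iff_le_not_ge] at h1 ⊢
  exact ⟨Subgroup.pointwise_smul_le_pointwise_smul_iff.2 h1.1,
    fun h => h1.2 (Subgroup.pointwise_smul_le_pointwise_smul_iff.1 h)⟩

/-- the action of an automorphism of `G` on the simplices -/
def act (p : ℕ) (φ : MulAut G) (n : ℕ) (σ : Simp p G n) : Simp p G n :=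
  ⟨fun i => φ • σ.1 i, strictMono_smul φ σ.2.1, fun i => isElemAb_smul p φ (σ.2.2 i)⟩

/-- the induced map on chains -/
noncomputable def gmap (p : ℕ) (φ : MulAut G) (n : ℕ) :
    (Simp p G n →₀ ℚ) →ₗ[ℚ] (Simp p G n →₀ ℚ) :=
  Finsupp.lmapDomain ℚ ℚ (act p φ n)

theorem finrank_chains [Finite G] (p n : ℕ) :
    Module.finrank ℚ (Simp p G n →₀ ℚ) = Nat.card (Simp p G n) := by
  have := Fintype.ofFinite (Simp p G n)
  rw [Module.finrank_finsupp_self, Nat.card_eq_fintype_card]

theorem card_simp_zero (p : ℕ) : Nat.card (Simp p G 0) = 1 := by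
  rw [Nat.card_eq_one_iff_unique]
  refine ⟨⟨?_⟩, ⟨⟨fun i => i.elim0, fun i => i.elim0, fun i => i.elim0⟩⟩⟩
  intro a b
  apply Subtype.ext
  funext i
  exact i.elim0

theorem isEmpty_simp_large [Finite G] (p n : ℕ) (hn : Nat.card (Subgroup G) < n) :
    IsEmpty (Simp p G n) := by
  constructor
  intro σ
  have h := Nat.card_le_card_of_injective σ.1 σ.2.1.injective
  rw [Nat.card_eq_fintype_card, Fintype.card_fin] at h
  omega

end Vale.Agent.Lib.P240
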