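import Vale.Agent.Lib.P240.Trace

/-! # P240: the Lefschetz numbers of an acyclic order complex -/

open scoped Pointwise

namespace Vale.Agent.Lib.P240

variable {G : Type} [Group G]

theorem bd_single (p n : ℕ) (σ : Simp p G (n + 1)) (c : ℚ) :
    bd p G n (Finsupp.single σ c)
      = c • ∑ i : Fin (n + 1), Finsupp.single (face σ i) ((-1 : ℚ) ^ (i : ℕ)) := by
  unfold bd
  rw [Finsupp.linearCombination_single]

theorem bd_gmap (p : ℕ) (φ : MulAut G) (n : ℕ) (x : Simp p G (n + 1) →₀ ℚ) :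
    bd p G n (gmap p φ (n + 1) x) = gmap p φ n (bd p G n x) := by
  have h : bd p G n ∘ₗ gmap p φ (n + 1) = gmap p φ n ∘ₗ bd p G n := by
    apply Finsupp.lhom_ext
    intro σ c
    simp only [LinearMap.comp_apply, gmap, Finsupp.lmapDomain_apply, Finsupp.mapDomain_single,
      bd_single]
    rw [Finsupp.mapDomain_smul, Finsupp.mapDomain_finsetSum]
    congr 1
    refine Finset.sum_congr rfl (fun i _ => ?_)
    rw [Finsupp.mapDomain_single]
    rfl
  exact LinearMap.congr_fun h x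

/-- the number of simplices with `n` vertices fixed by `φ` -/
noncomputable def fixN (p : ℕ) (φ : MulAut G) (n : ℕ) : ℕ :=
  Nat.card {σ : Simp p G n // act p φ n σ = σ}

theorem fixN_zero (p : ℕ) (φ : MulAut G) : fixN p φ 0 = 1 := by
  unfold fixN
  rw [Nat.card_eq_one_iff_unique]
  have hsub : ∀ a b : Simp p G 0, a = b := by
    intro a b
    apply Subtype.ext
    funext i
    exact i.elim0
  refine ⟨⟨fun a b => Subtype.ext (hsub _ _)⟩,
    ⟨⟨⟨fun i => i.elim0, fun i => i.elim0, fun i => i.elim0⟩, hsub _ _⟩⟩⟩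

/-- Hopf trace formula for an exact complex, in telescoped form -/
theorem lefschetz [Finite G] (p : ℕ) (φ : MulAut G) (h : Acyclic p G) :
    ∃ T : ℕ → ℚ, T 0 = 1 ∧ (∀ n, T (n + 1) = (fixN p φ (n + 1) : ℚ) - T n) ∧
      T (Nat.card (Subgroup G)) = 0 := by
  obtain ⟨s, hs0, hs⟩ := exists_homotopy h
  refine ⟨fun n => LinearMap.trace ℚ _ ((gmap p φ (n + 1) ∘ₗ s n) ∘ₗ bd p G n), ?_, ?_, ?_⟩
  · show LinearMap.trace ℚ _ ((gmap p φ (0 + 1) ∘ₗ s 0) ∘ₗ bd p G 0) = 1
    rw [LinearMap.trace_comp_comm']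
    have e : bd p G 0 ∘ₗ (gmap p φ (0 + 1) ∘ₗ s 0) = gmap p φ 0 := by
      apply LinearMap.ext
      intro y
      simp only [LinearMap.comp_apply]
      rw [bd_gmap, hs0]
    rw [e]
    unfold gmap
    rw [trace_lmapDomain]
    have := fixN_zero p φ
    unfold fixN at this
    rw [this]
    norm_num
  · intro n
    show LinearMap.trace ℚ _ ((gmap p φ (n + 1 + 1) ∘ₗ s (n + 1)) ∘ₗ bd p G (n + 1))
      = (fixN p φ (n + 1) : ℚ) - LinearMap.trace ℚ _ ((gmap p φ (n + 1) ∘ₗ s n) ∘ₗ bd p G n)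
    rw [LinearMap.trace_comp_comm']
    have e : bd p G (n + 1) ∘ₗ (gmap p φ (n + 1 + 1) ∘ₗ s (n + 1))
        + (gmap p φ (n + 1) ∘ₗ s n) ∘ₗ bd p G n = gmap p φ (n + 1) := by
      apply LinearMap.ext
      intro y
      simp only [LinearMap.comp_apply, LinearMap.add_apply]
      rw [bd_gmap, ← map_add, hs]
    have e2 : LinearMap.trace ℚ _ (gmap p φ (n + 1)) = (fixN p φ (n + 1) : ℚ) := by
      unfold gmap fixN
      exact trace_lmapDomain _
    have e3 := congrArg (LinearMap.trace ℚ _) e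
    rw [map_add, e2] at e3
    linarith
  · show LinearMap.trace ℚ _ ((gmap p φ (Nat.card (Subgroup G) + 1) ∘ₗ s (Nat.card (Subgroup G)))
      ∘ₗ bd p G (Nat.card (Subgroup G))) = 0
    have hE := isEmpty_simp_large (G := G) p (Nat.card (Subgroup G) + 1) (Nat.lt_succ_self _)
    have e : (gmap p φ (Nat.card (Subgroup G) + 1) ∘ₗ s (Nat.card (Subgroup G)))
      ∘ₗ bd p G (Nat.card (Subgroup G)) = 0 := by
      apply LinearMap.ext
      intro y
      exact Subsingleton.elim _ _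
    rw [e, map_zero]

end Vale.Agent.Lib.P240
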