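import Vale.Agent.Lib.P240.Lefschetz

/-! # P240: orbit counting on the simplices fixed by a group element -/

open scoped Pointwise

namespace Vale.Agent.Lib.P240

variable {G : Type} [Group G]

theorem conj_smul_of_mem_zpowers (g : G) (E : Subgroup G) (h : MulAut.conj g • E = E) (y : G)
    (hy : y ∈ Subgroup.zpowers g) : MulAut.conj y • E = E := by
  obtain ⟨k, rfl⟩ := Subgroup.mem_zpowers_iff.mp hy
  have h1 : MulAut.conj g ∈ MulAction.stabilizer (MulAut G) E := h
  have h2 := Subgroup.zpow_mem _ h1 k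
  rw [← map_zpow] at h2
  exact h2

theorem normalises_of_conj_smul (C E : Subgroup G) (h : ∀ y ∈ C, MulAut.conj y • E = E) :
    Normalises C E := by
  intro y hy x hx
  have h4 : MulAut.conj y • x ∈ MulAut.conj y • E := Subgroup.smul_mem_pointwise_smul x _ _ hx
  rw [h y hy] at h4
  exact h4

/-- orbit counting: the number of simplices fixed by `g` is divisible by `q` -/
theorem dvd_fixN [Finite G] (p q : ℕ) [Fact q.Prime] (g : G) (Q : Subgroup G) (hQ : IsPGroup q Q)
    (hnorm : Normalises Q (Subgroup.zpowers g))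
    (hno : ∀ E : Subgroup G, IsElemAb p E → Normalises Q E →
      ¬ Normalises (Subgroup.zpowers g) E) (n : ℕ) :
    q ∣ fixN p (MulAut.conj g) (n + 1) := by
  have hA : IsPGroup q (Q.map (MulAut.conj : G →* MulAut G)) := hQ.map _
  let X : SubMulAction (Q.map (MulAut.conj : G →* MulAut G)) (Fin (n + 1) → Subgroup G) :=
    { carrier := {σ | (StrictMono σ ∧ ∀ i, IsElemAb p (σ i)) ∧ ∀ i, MulAut.conj g • σ i = σ i}
      smul_mem' := by
        intro φ σ hσ
        refine ⟨⟨strictMono_smul φ.1 hσ.1.1, fun i => isElemAb_smul p φ.1 (hσ.1.2 i)⟩, ?_⟩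
        intro i
        obtain ⟨x, hx, hφ⟩ := Subgroup.mem_map.mp φ.2
        show MulAut.conj g • (φ.1 • σ i) = φ.1 • σ i
        rw [← hφ, smul_smul, ← map_mul]
        have e : g * x = x * (x⁻¹ * g * x) := by group
        have hm : x⁻¹ * g * x ∈ Subgroup.zpowers g := by
          have := hnorm x⁻¹ (Q.inv_mem hx) g (Subgroup.mem_zpowers g)
          rwa [inv_inv] at this
        rw [e, map_mul, mul_smul, conj_smul_of_mem_zpowers g (σ i) (hσ.2 i) _ hm] }
  have h1 := hA.card_modEq_card_fixedPoints X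
  have e1 : Nat.card X = fixN p (MulAut.conj g) (n + 1) := by
    unfold fixN
    refine Nat.card_congr
      { toFun := fun a => ⟨⟨a.1, a.2.1⟩, Subtype.ext (funext a.2.2)⟩
        invFun := fun b => ⟨b.1.1, b.1.2, fun i => congrFun (congrArg Subtype.val b.2) i⟩
        left_inv := fun a => rfl
        right_inv := fun b => rfl }
  have : IsEmpty (MulAction.fixedPoints (Q.map (MulAut.conj : G →* MulAut G)) X) := by
    constructor
    intro a
    apply hno (a.1.1 0) (a.1.2.1.2 0)
    · apply normalises_of_conj_smul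
      intro y hy
      have h2 := a.2 ⟨MulAut.conj y, Subgroup.mem_map_of_mem _ hy⟩
      exact congrFun (congrArg Subtype.val h2) 0
    · apply normalises_of_conj_smul
      intro y hy
      exact conj_smul_of_mem_zpowers g _ (a.1.2.2 0) y hy
  have e2 : Nat.card (MulAction.fixedPoints (Q.map (MulAut.conj : G →* MulAut G)) X) = 0 :=
    Nat.card_of_isEmpty
  rw [e1, e2] at h1
  exact (Nat.modEq_zero_iff_dvd).1 h1

/-- Robinson type criterion -/
theorem not_acyclic_of_hyperelementary [Finite G] (p q : ℕ) [Fact q.Prime] (g : G)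
    (Q : Subgroup G) (hQ : IsPGroup q Q) (hnorm : Normalises Q (Subgroup.zpowers g))
    (hno : ∀ E : Subgroup G, IsElemAb p E → Normalises Q E →
      ¬ Normalises (Subgroup.zpowers g) E) : ¬ Acyclic p G := by
  intro hac
  obtain ⟨T, hT0, hTs, hTN⟩ := lefschetz p (MulAut.conj g) hac
  have key : ∀ n, ∃ m : ℤ, T n = (-1) ^ n + (q : ℚ) * (m : ℚ) := by
    intro n
    induction n with
    | zero => exact ⟨0, by simp [hT0]⟩
    | succ n ih =>
      obtain ⟨m, hm⟩ := ih
      obtain ⟨c, hc⟩ := dvd_fixN p q g Q hQ hnorm hno n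
      refine ⟨(c : ℤ) - m, ?_⟩
      rw [hTs n, hm, hc]
      push_cast
      ring
  obtain ⟨m, hm⟩ := key (Nat.card (Subgroup G))
  rw [hTN] at hm
  have h2 : ((-1 : ℤ) ^ (Nat.card (Subgroup G)) + (q : ℤ) * m : ℤ) = 0 := by
    have h3 : (((-1 : ℤ) ^ (Nat.card (Subgroup G)) + (q : ℤ) * m : ℤ) : ℚ) = 0 := by
      push_cast
      exact hm.symm
    exact_mod_cast h3
  have h5 : (q : ℤ) ∣ 1 := by
    rcases neg_one_pow_eq_or ℤ (Nat.card (Subgroup G)) with h | h
    · rw [h] at h2
      exact ⟨-m, by linarith⟩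
    · rw [h] at h2
      exact ⟨m, by linarith⟩
  have h6 : q ∣ 1 := by exact_mod_cast h5
  exact (Fact.out : q.Prime).one_lt.ne' (Nat.dvd_one.1 h6)

end Vale.Agent.Lib.P240
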