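import Vale.Agent.Lib.P240.Defs

/-! # P240: linear algebra: traces of permutation maps, sections, contracting homotopy -/

namespace Vale.Agent.Lib.P240

theorem trace_lmapDomain {X : Type} [Finite X] (f : X → X) :
    LinearMap.trace ℚ (X →₀ ℚ) (Finsupp.lmapDomain ℚ ℚ f) = (Nat.card {x // f x = x} : ℚ) := by
  classical
  have := Fintype.ofFinite X
  rw [LinearMap.trace_eq_matrix_trace ℚ (Finsupp.basisSingleOne (R := ℚ) (ι := X))]
  unfold Matrix.trace
  simp only [Matrix.diag_apply, LinearMap.toMatrix_apply, Finsupp.coe_basisSingleOne,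
    Finsupp.basisSingleOne_repr, LinearEquiv.refl_apply, Finsupp.lmapDomain_apply,
    Finsupp.mapDomain_single, Finsupp.single_apply]
  rw [Finset.sum_boole, Nat.card_eq_fintype_card, Fintype.card_subtype]

theorem exists_section {V W : Type} [AddCommGroup V] [Module ℚ V] [AddCommGroup W] [Module ℚ W]
    (f : V →ₗ[ℚ] W) : ∃ ρ : W →ₗ[ℚ] V, ∀ y ∈ LinearMap.range f, f (ρ y) = y := by
  obtain ⟨r, hr⟩ := f.rangeRestrict.exists_rightInverse_of_surjective
    (LinearMap.range_rangeRestrict f)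
  obtain ⟨ρ, hρ⟩ := LinearMap.exists_extend r
  refine ⟨ρ, ?_⟩
  intro y hy
  have h1 : ρ y = r ⟨y, hy⟩ := LinearMap.congr_fun hρ ⟨y, hy⟩
  rw [h1]
  have h2 := LinearMap.congr_fun hr ⟨y, hy⟩
  exact congrArg Subtype.val h2

theorem bd_bd {p : ℕ} {G : Type} [Group G] (h : Acyclic p G) (n : ℕ)
    (x : Simp p G (n + 1 + 1) →₀ ℚ) : bd p G n (bd p G (n + 1) x) = 0 := by
  have h1 : bd p G (n + 1) x ∈ LinearMap.ker (bd p G n) := by
    rw [h.2 n]
    exact LinearMap.mem_range_self _ x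
  exact h1

/-- an exact complex of vector spaces has a contracting homotopy -/
theorem exists_homotopy {p : ℕ} {G : Type} [Group G] (h : Acyclic p G) :
    ∃ s : ∀ n, (Simp p G n →₀ ℚ) →ₗ[ℚ] (Simp p G (n + 1) →₀ ℚ),
      (∀ y, bd p G 0 (s 0 y) = y) ∧
        ∀ n y, bd p G (n + 1) (s (n + 1) y) + s n (bd p G n y) = y := by
  choose ρ hρ using fun n => exists_section (bd p G n)
  let s : ∀ n, (Simp p G n →₀ ℚ) →ₗ[ℚ] (Simp p G (n + 1) →₀ ℚ) := fun n =>
    Nat.rec (ρ 0) (fun n sn => ρ (n + 1) ∘ₗ (LinearMap.id - sn ∘ₗ bd p G n)) n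
  have hss : ∀ n y, s (n + 1) y = ρ (n + 1) (y - s n (bd p G n y)) := fun n y => rfl
  have h0 : ∀ y, bd p G 0 (s 0 y) = y := by
    intro y
    exact hρ 0 y (by rw [h.1]; trivial)
  have main_of_key : ∀ n, (∀ x, bd p G n (x - s n (bd p G n x)) = 0) →
      ∀ y, bd p G (n + 1) (s (n + 1) y) = y - s n (bd p G n y) := by
    intro n hk y
    rw [hss]
    apply hρ (n + 1)
    rw [← h.2 n]
    exact hk y
  have key : ∀ n x, bd p G n (x - s n (bd p G n x)) = 0 := by
    intro n
    induction n with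
    | zero =>
      intro x
      rw [map_sub, h0, sub_self]
    | succ n ih =>
      intro x
      rw [map_sub, main_of_key n ih, bd_bd h, map_zero, sub_zero, sub_self]
  refine ⟨s, h0, ?_⟩
  intro n y
  rw [main_of_key n (key n)]
  abel

end Vale.Agent.Lib.P240
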